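import Vale.Agent.P224.R2.H797.Unit
import Vale.Agent.P224.SO.Pd3
import Vale.Agent.P224.PO.LawNumO

/-!
A certificate for the direction of the mean normal excludes a range of lengths of the mean normal.
-/

namespace Vale.Agent.P224.R2.H797

open MeasureTheory Set Filter Function Module Vale.Agent.P224 Vale.Agent.P224.UE
open Vale.Agent.P224.PO Vale.Agent.P224.R2.H178
open Vale.Agent.P224.SM2 hiding ker
open scoped Topology RealInnerProductSpace ENNReal ContDiff Manifold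

/-- an affine function is negative between its end points -/
lemma aff_neg {c d a b ρ : ℝ} (h1 : c + d * a < 0) (h2 : c + d * b < 0) (ha : a ≤ ρ)
    (hb : ρ ≤ b) : c + d * ρ < 0 := by
  rcases le_total 0 d with hd | hd
  · have := mul_le_mul_of_nonneg_left hb hd
    linarith
  · have := mul_le_mul_of_nonpos_left ha hd
    linarith

lemma continuous_XF (r1 r2 r3 : ℝ) : Continuous (XF r1 r2 r3) := by
  unfold XF
  fun_prop

lemma kh_ge {C : ℝ} (hC : C ≤ 15396007179 / 10000000000) : 330797 / 100000 * C ≤ KH 3 := by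
  have hb := (div_pi_bounds (N := 16) (by norm_num)).1
  have hK : KH 3 = 16 / Real.pi := KH_three
  rw [hK]
  refine le_trans ?_ hb
  have := mul_le_mul_of_nonneg_left hC (by norm_num : (0 : ℝ) ≤ 330797 / 100000)
  refine this.trans ?_
  norm_num

/-- **A certificate excludes a length of the mean normal.** -/
theorem false_of_cert {X : Type*} [MeasurableSpace X] [Nonempty X] {E : Type*}
    [NormedAddCommGroup E] [InnerProductSpace ℝ E] [FiniteDimensional ℝ E] [MeasurableSpace E]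
    [BorelSpace E] {μ : Measure X} [IsFiniteMeasure μ] {F N : X → E} {B S : ℝ}
    (hE : EmbD μ 3 F N B S) {v : E} (hv : ‖v‖ = 1) {ν : ℝ} (hν : 0 < ν)
    (he : (μ.real univ * ν) • v = ∫ x, N x ∂μ) (hA0 : 0 < μ.real univ) {C : ℝ}
    (hC : C ≤ 15396007179 / 10000000000) (hS : 0 < S) (hle : μ.real univ ≤ C * S)
    {b0 b1 b2 b3 b4 b5 b6 b7 b8 : ℝ} {l : List (ℝ × HTerm)}
    (hl : ∀ cT ∈ l, cT.2.ok 3 = true) {r1 r2 r3 r4 q : ℝ} (hr4 : r4 ≤ 0)
    (hpos : ∀ v x N y w : E, ‖v‖ = 1 → ‖x‖ = 1 → ‖N‖ = 1 → ‖y‖ = 1 → ‖w‖ = 1 → ⟪x, N⟫ = 0 →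
      ⟪y, w⟫ = 0 → ⟪x, y⟫ < 1 → 0 ≤ W9 b0 b1 b2 b3 b4 b5 b6 b7 b8 (dv x N y w v)
        + hsum 3 l (dv x N y w v) + XF r1 r2 r3 (dv x N y w v) + r4 * dv x N y w v 0 ^ 3)
    (hres : 0 ≤ q * μ.real univ ^ 2 - ∫ p, XF r1 r2 r3 (dat F N v p) ∂(μ.prod μ))
    (hlaw : ∀ ρ, ν ^ 2 ≤ ρ → ρ ≤ 1 → hvalU 3 l ν ρ ≤ 0 ∧
      q + (b0 + b3 + b2 * ν + b1 * ν ^ 2 + (b4 + b7 * ν) * ρ + (b5 + b6) * ν ^ 2
        + b8 * ((1 - ρ) / 4)) + 330797 / 100000 * hvalU 3 l ν ρ < 0) : False := by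
  have hG := hE.toTwoG
  have hRc : Continuous fun d : R9 => -XF r1 r2 r3 d + (-r4) * d 0 ^ 3 :=
    (continuous_XF r1 r2 r3).neg.add (by fun_prop)
  obtain ⟨ρ, h1, h2, h3⟩ := lawU hE (by norm_num) hv hν he hA0 hRc hl
    (fun x N y w a1 a2 a3 a4 a5 a6 a7 => by
      have := hpos v x N y w hv a1 a2 a3 a4 a5 a6 a7
      linarith)
  have hint : ∀ {G : R9 → ℝ}, Continuous G → Integrable (fun q => G (dat F N v q)) (μ.prod μ) :=
    fun hG' => integrable_param _ (measurable_dat hG.toPts v) (isCompact_KE (bE v))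
      (dat_mem hG.toPts v) hG'.measurable hG'.continuousOn
  have i1 : Integrable (fun q => -XF r1 r2 r3 (dat F N v q)) (μ.prod μ) :=
    hint (G := fun d => -XF r1 r2 r3 d) (continuous_XF r1 r2 r3).neg
  have i2 : Integrable (fun q => (-r4) * dat F N v q 0 ^ 3) (μ.prod μ) :=
    (hint (G := fun d => d 0 ^ 3) (by fun_prop)).const_mul (-r4)
  have h4 : 0 ≤ ∫ q, dat F N v q 0 ^ 3 ∂(μ.prod μ) := SO.k00 (μ := μ) (p := F) ⟨hG.mp, hG.np⟩
  rw [integral_add i1 i2, integral_const_mul, integral_neg] at h3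
  have h5 : 0 ≤ -r4 * ∫ q, dat F N v q 0 ^ 3 ∂(μ.prod μ) := mul_nonneg (by linarith) h4
  obtain ⟨h6, h7⟩ := hlaw ρ h1 h2
  set h := hvalU 3 l ν ρ with hh
  set A := μ.real univ with hA
  have hK := kh_ge hC
  have h8 : KH 3 * S * h ≤ 330797 / 100000 * A * h := by
    refine mul_le_mul_of_nonpos_right ?_ h6
    calc 330797 / 100000 * A ≤ 330797 / 100000 * (C * S) :=
          mul_le_mul_of_nonneg_left hle (by norm_num)
      _ = 330797 / 100000 * C * S := by ring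
      _ ≤ KH 3 * S := mul_le_mul_of_nonneg_right hK hS.le
  have h9 := mul_le_mul_of_nonneg_left h8 hA0.le
  have h10 := mul_neg_of_pos_of_neg (by positivity : 0 < A ^ 2) h7
  have e4 : (((3 : ℕ) : ℝ) + 1) = 4 := by norm_num
  rw [e4] at h3
  nlinarith

end Vale.Agent.P224.R2.H797
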