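import Vale.Agent.P224.R2.H797.Res3
import Vale.Agent.P224.R2.H797.A.Id
import Vale.Agent.P224.R2.H797.A.Law
import Vale.Agent.P224.R2.H797.B.Id
import Vale.Agent.P224.R2.H797.B.Law
import Vale.Agent.P224.R2.H797.C.Id
import Vale.Agent.P224.R2.H797.C.Law
import Vale.Agent.P224.R2.H797.D.Id
import Vale.Agent.P224.R2.H797.D.Law
import Vale.Agent.P224.PO.R3b.Main

/-!
The mean normal of an embedded minimal hypersurface of dimension three of small volume is small.
-/

namespace Vale.Agent.P224.R2.H797

open MeasureTheory Set Filter Function Module Vale.Agent.P224 Vale.Agent.P224.UE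
open Vale.Agent.P224.PO Vale.Agent.P224.R2.H178 Vale.Agent.P224.R2.H176
open Vale.Agent.P224.SM2 hiding ker
open scoped Topology RealInnerProductSpace ENNReal ContDiff Manifold

set_option linter.unusedSectionVars false

section

variable {V W M : Type*} [NormedAddCommGroup V] [InnerProductSpace ℝ V] [FiniteDimensional ℝ V]
  [NormedAddCommGroup W] [InnerProductSpace ℝ W] [FiniteDimensional ℝ W]
  [TopologicalSpace M] [ChartedSpace V M]
  [MeasurableSpace V] [BorelSpace V] [MeasurableSpace M] [BorelSpace M]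
  [IsManifold 𝓘(ℝ, V) ∞ M] [CompactSpace M] [T2Space M] [ConnectedSpace M]
  [MeasurableSpace W] [BorelSpace W]

/-- **The mean normal is small**: `|∫ N| < (21 / 5000) A` for an embedded minimal hypersurface of
the five dimensional space form with volume at most that of the Clifford hypersurface, if the
orientation is chosen so that the resource is nonnegative. -/
theorem smallNN3 (hV : finrank ℝ V = 3) (hW : finrank ℝ W = finrank ℝ V + 2) {F : M → W}
    (hF : SphImm V F) (hmin : ∀ x n, IsUnitNormal V F x n → meanCurv V F x n = 0)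
    (hng : ¬ ∃ a : W, a ≠ 0 ∧ ∀ x, ⟪F x, a⟫ = 0) :
    SmallNN V 3 F (8 / 3 * √(1 / 3)) ((21 / 5000) ^ 2) := by
  have hfin : IsFiniteMeasure (volM V F) := isFiniteMeasure_volM hF
  have hne : Nonempty M := inferInstance
  have hA0 : 0 < (volM V F).real univ := by
    rw [measureReal_def]
    exact ENNReal.toReal_pos (volM_pos_of_isOpen hW hF isOpen_univ univ_nonempty).ne'
      (measure_ne_top _ _)
  have hS : 0 < sphereVol 3 := sphereVol_pos' _
  have hlow : 4981 / 5000 * leastClifford 3 ≤ (volM V F).real univ := by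
    have h := R3b.main hV hW hF hmin hng
    rw [measureReal_def]
    exact (ENNReal.ofReal_le_iff_le_toReal (measure_ne_top _ _)).1 h
  intro N Bc hNs hN hE hor htop hle
  by_contra hcon
  have hcon' := not_lt.1 hcon
  have hG := hE.toTwoG
  set vA := (volM V F).real univ with hA
  set n := ‖∫ x, N x ∂(volM V F)‖ with hn
  have hn0 : 21 / 5000 * vA ≤ n := by
    have h1 : (21 / 5000 * vA) ^ 2 ≤ n ^ 2 := by
      rw [mul_pow]
      exact hcon'
    exact le_of_sq_le_sq h1 (norm_nonneg _)
  have hnp : 0 < n := lt_of_lt_of_le (by positivity) hn0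
  set ν := n / vA with hν
  have hν1 : 21 / 5000 ≤ ν := (le_div_iff₀ hA0).2 hn0
  have hνp : 0 < ν := lt_of_lt_of_le (by norm_num) hν1
  have hν2 : ν ≤ 33 / 50 := by
    rw [hν, div_le_iff₀ hA0]
    rw [least3_eq] at hlow
    have h1 := mul_le_mul_of_nonneg_right a3_ge hS.le
    nlinarith
  set v := n⁻¹ • ∫ x, N x ∂(volM V F) with hv
  have hv1 : ‖v‖ = 1 := by
    rw [hv, norm_smul, norm_inv, Real.norm_eq_abs, abs_of_pos hnp, ← hn, inv_mul_cancel₀ hnp.ne']
  have he : (vA * ν) • v = ∫ x, N x ∂(volM V F) := by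
    rw [hν, mul_div_cancel₀ _ hA0.ne', hv, smul_smul, mul_inv_cancel₀ hnp.ne', one_smul]
  have hr : ∀ {lam q r1 r2 r3 : ℝ}, 0 ≤ lam → r1 = -(lam * (16 / 25)) → r2 = lam →
      r3 = -(lam * (711 / 5000)) → q = lam * (510908 / 10000000) →
      0 ≤ q * vA ^ 2 - ∫ p, XF r1 r2 r3 (dat F N v p) ∂((volM V F).prod (volM V F)) :=
    fun hl h1 h2 h3 hq => res_le hV hW hF hmin hng hNs hN hG hor v hl h1 h2 h3 hq
  rcases le_total ν (3 / 100) with h1 | h1
  · exact false_of_cert hE hv1 hνp he hA0 a3_le hS hle A.rows_ok (by norm_num)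
      (fun v x N y w a b c d e f g h => A.hpos v x N y w a b c d e f g h)
      (hr (lam := 236270160000000 / 477102080000000) (by norm_num) (by norm_num) (by norm_num)
        (by norm_num) (by norm_num))
      (fun ρ h3 h4 => A.hneg hν1 h1 h3 h4)
  rcases le_total ν (19 / 200) with h2 | h2
  · exact false_of_cert hE hv1 hνp he hA0 a3_le hS hle B.rows_ok (by norm_num)
      (fun v x N y w a b c d e f g h => B.hpos v x N y w a b c d e f g h)
      (hr (lam := 392603060000000 / 843448320000000) (by norm_num) (by norm_num) (by norm_num)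
        (by norm_num) (by norm_num))
      (fun ρ h3 h4 => B.hneg (le_trans (by norm_num) h1) h2 h3 h4)
  rcases le_total ν (3 / 10) with h5 | h5
  · exact false_of_cert hE hv1 hνp he hA0 a3_le hS hle C.rows_ok (by norm_num)
      (fun v x N y w a b c d e f g h => C.hpos v x N y w a b c d e f g h)
      (hr (lam := 0) (by norm_num) (by norm_num) (by norm_num) (by norm_num) (by norm_num))
      (fun ρ h3 h4 => C.hneg (le_trans (by norm_num) h2) h5 h3 h4)
  · exact false_of_cert hE hv1 hνp he hA0 a3_le hS hle D.rows_ok (by norm_num)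
      (fun v x N y w a b c d e f g h => D.hpos v x N y w a b c d e f g h)
      (hr (lam := 0) (by norm_num) (by norm_num) (by norm_num) (by norm_num) (by norm_num))
      (fun ρ h3 h4 => D.hneg (le_trans (by norm_num) h5) hν2 h3 h4)

end

end Vale.Agent.P224.R2.H797
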