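import Vale.Agent.P224.R2.H797.Unit
import Vale.Agent.P224.PO.LawNumO
import Vale.Agent.P224.PO.Cst

/-!
A certificate for the direction of the mean normal excludes a range of lengths of the mean normal,
in every dimension.
-/

namespace Vale.Agent.P224.R2.H797

open MeasureTheory Set Filter Function Module Vale.Agent.P224 Vale.Agent.P224.UE
open Vale.Agent.P224.PO Vale.Agent.P224.R2.H178
open Vale.Agent.P224.SM2 hiding ker
open scoped Topology RealInnerProductSpace ENNReal ContDiff Manifold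

/-- **A certificate excludes a length of the mean normal.** -/
theorem false_of_certM {X : Type*} [MeasurableSpace X] [Nonempty X] {E : Type*}
    [NormedAddCommGroup E] [InnerProductSpace ℝ E] [FiniteDimensional ℝ E] [MeasurableSpace E]
    [BorelSpace E] {μ : Measure X} [IsFiniteMeasure μ] {F N : X → E} {B S : ℝ} {m : ℕ}
    (hm2 : 2 ≤ m) (hE : EmbD μ m F N B S) {e : E} (he0 : e ≠ 0)
    (he : μ.real univ • e = ∫ x, N x ∂μ) (hA0 : 0 < μ.real univ) {C κ : ℝ} (hκ0 : 0 ≤ κ)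
    (hκ : κ * C ≤ KH m) (hS : 0 < S) (hle : μ.real univ ≤ C * S)
    {b0 b1 b2 b3 b4 b5 b6 b7 b8 : ℝ} {l : List (ℝ × HTerm)}
    (hl : ∀ cT ∈ l, cT.2.ok m = true)
    (hpos : ∀ v x N y w : E, ‖v‖ = 1 → ‖x‖ = 1 → ‖N‖ = 1 → ‖y‖ = 1 → ‖w‖ = 1 → ⟪x, N⟫ = 0 →
      ⟪y, w⟫ = 0 → ⟪x, y⟫ < 1 → 0 ≤ W9 b0 b1 b2 b3 b4 b5 b6 b7 b8 (dv x N y w v)
        + hsum m l (dv x N y w v))
    (hlaw : ∀ ρ, ‖e‖ ^ 2 ≤ ρ → ρ ≤ 1 → hvalU m l ‖e‖ ρ ≤ 0 ∧
      (b0 + b3 + b2 * ‖e‖ + b1 * ‖e‖ ^ 2 + (b4 + b7 * ‖e‖) * ρ + (b5 + b6) * ‖e‖ ^ 2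
        + b8 * ((1 - ρ) / (m + 1))) + κ * hvalU m l ‖e‖ ρ < 0) : False := by
  have hν : 0 < ‖e‖ := norm_pos_iff.2 he0
  have hv : ‖(‖e‖⁻¹ • e)‖ = 1 := by
    rw [norm_smul, norm_inv, norm_norm, inv_mul_cancel₀ hν.ne']
  have he' : (μ.real univ * ‖e‖) • (‖e‖⁻¹ • e) = ∫ x, N x ∂μ := by
    rw [smul_smul, mul_assoc, mul_inv_cancel₀ hν.ne', mul_one, he]
  obtain ⟨ρ, h1, h2, h3⟩ := lawU hE hm2 hv hν he' hA0 (R := fun _ => 0) continuous_const hl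
    (fun x N y w hx hN hy hw hxN hyw hs => by
      rw [sub_zero]
      exact hpos _ x N y w hv hx hN hy hw hxN hyw hs)
  rw [integral_zero] at h3
  have h4 := nonneg_of_mul_nonneg_right h3 hA0
  obtain ⟨h6, h7⟩ := hlaw ρ h1 h2
  set h := hvalU m l ‖e‖ ρ with hh
  set A := μ.real univ with hA
  have h8 : KH m * S * h ≤ κ * A * h := by
    refine mul_le_mul_of_nonpos_right ?_ h6
    calc κ * A ≤ κ * (C * S) := mul_le_mul_of_nonneg_left hle hκ0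
      _ = κ * C * S := by ring
      _ ≤ KH m * S := mul_le_mul_of_nonneg_right hκ hS.le
  have h10 := mul_neg_of_pos_of_neg hA0 h7
  nlinarith

end Vale.Agent.P224.R2.H797
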