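import Vale.Agent.P224.UG.Ratio

/-!
Sharp upper bounds of the least Clifford ratio, and its interpolation between a dimension `m1` and
infinity.
-/

namespace Vale.Agent.P224.R2.H797

open Real Vale.Agent.P224

/-- the exponent of the Clifford ratio, divided by `x` -/
noncomputable def pE (x : ℝ) : ℝ := 1 / 4 + x ^ 2 / 24 + x ^ 4 / 20

lemma log_le_six {x : ℝ} (h0 : 0 < x) (h1 : x ≤ 1 / 17) :
    (1 - x) * log (1 - x) + (1 + x) * log (1 + x) ≤ x ^ 2 + x ^ 4 / 6 + x ^ 6 / 5 := by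
  have hx : |x| < 1 := by
    rw [abs_of_pos h0]
    linarith
  have a1 := Real.abs_log_sub_add_sum_range_le (x := x) hx 6
  have a2 := Real.abs_log_sub_add_sum_range_le (x := -x) (by rwa [abs_neg]) 6
  rw [abs_neg] at a2
  rw [abs_of_pos h0] at a1 a2
  simp only [Finset.sum_range_succ, Finset.sum_range_zero, Nat.cast_zero, Nat.cast_one,
    Nat.cast_ofNat] at a1 a2
  have b1 := (abs_le.1 a1).2
  have b2 := (abs_le.1 a2).2
  have h3 : x ^ (6 + 1) / (1 - x) ≤ 1 / 16 * x ^ 6 := by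
    rw [div_le_iff₀ (by linarith)]
    have : 0 < x ^ 6 := by positivity
    nlinarith
  have e0 : 1 - -x = 1 + x := by ring
  rw [e0] at b2
  have c1 := mul_le_mul_of_nonneg_left (b1.trans h3) (by linarith : 0 ≤ 1 - x)
  have c2 := mul_le_mul_of_nonneg_left (b2.trans h3) (by linarith : 0 ≤ 1 + x)
  have d1 : 0 ≤ x ^ 6 := by positivity
  norm_num at c1 c2
  nlinarith

/-- the odd ratio -/
lemma oddRatio_sharp {k : ℕ} (hk : 8 ≤ k) :
    oddRatio k ≤ √2 * exp (1 / (2 * (k : ℝ) + 1) * pE (1 / (2 * (k : ℝ) + 1))) := by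
  have hk' : (8 : ℝ) ≤ k := by exact_mod_cast hk
  set m : ℝ := 2 * (k : ℝ) + 1 with hm
  have hm0 : 0 < m := by linarith
  set x : ℝ := 1 / m with hx
  have hx0 : 0 < x := by positivity
  have hx1 : x ≤ 1 / 17 := one_div_le_one_div_of_le (by norm_num) (by linarith)
  refine le_of_pow_le_pow_left₀ (n := 4) (by norm_num) (by positivity) ?_
  rw [oddRatio_pow_four, mul_pow, ← Real.exp_nat_mul]
  have e4 : (√2 : ℝ) ^ 4 = 4 := by
    have h : (√2 : ℝ) ^ 2 = 2 := Real.sq_sqrt (by norm_num)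
    calc (√2 : ℝ) ^ 4 = ((√2) ^ 2) ^ 2 := by ring
      _ = 4 := by rw [h]; norm_num
  rw [e4]
  have e1 : 2 * (k : ℝ) / m = 1 - x := by
    rw [hx]
    field_simp
    linarith
  have e2 : (2 * (k : ℝ) + 2) / m = 1 + x := by
    rw [hx]
    field_simp
    linarith
  rw [e1, e2]
  have p1 : 0 < 1 - x := by linarith
  have p2 : 0 < 1 + x := by linarith
  refine mul_le_mul_of_nonneg_left ?_ (by norm_num)
  rw [← Real.log_le_iff_le_exp (by positivity), Real.log_mul (by positivity) (by positivity),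
    Real.log_pow, Real.log_pow]
  have h := log_le_six hx0 hx1
  have h2 := mul_le_mul_of_nonneg_left h hm0.le
  have hmx : m * x = 1 := by
    rw [hx]
    field_simp
  have e5 : ((2 * k : ℕ) : ℝ) = m * (1 - x) := by
    push_cast
    rw [mul_sub, hmx]
    linarith
  have e6 : ((2 * k + 2 : ℕ) : ℝ) = m * (1 + x) := by
    push_cast
    rw [mul_add, hmx]
    linarith
  rw [e5, e6]
  have e7 : m * (x ^ 2 + x ^ 4 / 6 + x ^ 6 / 5) = ((4 : ℕ) : ℝ) * (x * pE x) := by
    have : m * (x ^ 2 + x ^ 4 / 6 + x ^ 6 / 5) = (m * x) * (x + x ^ 3 / 6 + x ^ 5 / 5) := by ring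
    rw [this, hmx]
    unfold pE
    push_cast
    ring
  rw [← e7]
  refine le_trans (le_of_eq ?_) h2
  ring

/-- **The least Clifford ratio**, sharp up to the order five. -/
theorem leastClifford_sharp {m : ℕ} (hm : 17 ≤ m) :
    leastClifford m ≤ √2 * exp (1 / (m : ℝ) * pE (1 / (m : ℝ))) * sphereVol m := by
  rcases Nat.even_or_odd' m with ⟨k, hk | hk⟩
  · subst hk
    refine even_bound (by omega) ((UG.evenRatio_le (by omega)).trans ?_)
    have hk0 : (0 : ℝ) < k := by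
      have : 0 < k := by omega
      exact_mod_cast this
    refine mul_le_mul_of_nonneg_left (Real.exp_le_exp.2 ?_) (by positivity)
    unfold pE
    push_cast
    have e1 : 1 / (8 * (k : ℝ)) = 1 / (2 * (k : ℝ)) * (1 / 4) := by
      field_simp
      norm_num
    rw [e1]
    refine mul_le_mul_of_nonneg_left ?_ (by positivity)
    have : 0 ≤ (1 / (2 * (k : ℝ))) ^ 2 / 24 + (1 / (2 * (k : ℝ))) ^ 4 / 20 := by positivity
    linarith
  · subst hk
    have h := oddRatio_sharp (k := k) (by omega)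
    refine odd_bound (by omega) (h.trans (le_of_eq ?_))
    push_cast
    rfl

/-- the exponential, up to the third order -/
lemma exp_le_three {y : ℝ} (h0 : 0 ≤ y) (h1 : y ≤ 1) : exp y ≤ 1 + y + y ^ 2 / 2 + 2 / 9 * y ^ 3 := by
  have h := Real.exp_bound' h0 h1 (n := 3) (by norm_num)
  simp only [Finset.sum_range_succ, Finset.sum_range_zero, Nat.factorial] at h
  norm_num at h
  linarith

/-- **Interpolation of the least Clifford ratio** between the dimension `m1` and infinity. -/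
theorem lev_pair {m1 m : ℕ} (h17 : 17 ≤ m1) (hm : m1 ≤ m) {C0 C1 : ℝ} (h0 : √2 ≤ C0)
    (hc : C0 * (1 / (m1 : ℝ) * pE (1 / (m1 : ℝ)) + (1 / (m1 : ℝ) * pE (1 / (m1 : ℝ))) ^ 2 / 2
      + 2 / 9 * (1 / (m1 : ℝ) * pE (1 / (m1 : ℝ))) ^ 3) ≤ C1 - C0) :
    leastClifford m ≤ (C0 + ((m1 : ℝ) + 1) / ((m : ℝ) + 1) * (C1 - C0)) * sphereVol m := by
  have hm17 : 17 ≤ m := h17.trans hm
  refine (leastClifford_sharp hm17).trans ?_
  refine mul_le_mul_of_nonneg_right ?_ (sphereVol_pos' m).le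
  have hC0 : 0 < C0 := lt_of_lt_of_le (by positivity) h0
  have hr1 : (17 : ℝ) ≤ m1 := by exact_mod_cast h17
  have hr : (m1 : ℝ) ≤ m := by exact_mod_cast hm
  set x1 : ℝ := 1 / (m1 : ℝ) with hx1
  set x : ℝ := 1 / (m : ℝ) with hx
  have hx10 : 0 < x1 := by positivity
  have hx0 : 0 < x := by
    rw [hx]
    have : (0 : ℝ) < m := by linarith
    positivity
  have hxx : x ≤ x1 := one_div_le_one_div_of_le (by linarith) hr
  have hx17 : x1 ≤ 1 / 17 := one_div_le_one_div_of_le (by norm_num) hr1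
  have hp0 : 0 ≤ pE x := by
    unfold pE
    positivity
  have hpp : pE x ≤ pE x1 := by
    unfold pE
    gcongr
  have hp1 : pE x1 ≤ 1 := by
    have h2 : pE x1 ≤ pE (1 / 17) := by
      unfold pE
      gcongr
    refine h2.trans ?_
    unfold pE
    norm_num
  have hy1 : x * pE x ≤ 1 := by
    have : x * pE x ≤ 1 * 1 := by
      gcongr
      · linarith
      · exact hpp.trans hp1
    linarith
  have he := exp_le_three (by positivity : 0 ≤ x * pE x) hy1
  set y := x * pE x with hy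
  set y1 := x1 * pE x1 with hy1'
  have hmp : (0 : ℝ) < (m : ℝ) + 1 := by linarith
  -- the comparison of the two values of `(m + 1) (exp - 1)`
  have key : ((m : ℝ) + 1) * (y + y ^ 2 / 2 + 2 / 9 * y ^ 3)
      ≤ ((m1 : ℝ) + 1) * (y1 + y1 ^ 2 / 2 + 2 / 9 * y1 ^ 3) := by
    have a1 : ((m : ℝ) + 1) * (y + y ^ 2 / 2 + 2 / 9 * y ^ 3)
        = (1 + x) * (pE x + x * pE x ^ 2 / 2 + 2 / 9 * x ^ 2 * pE x ^ 3) := by
      have hmx : (m : ℝ) * x = 1 := by
        rw [hx]
        have : (m : ℝ) ≠ 0 := by linarith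
        field_simp
      have : ((m : ℝ) + 1) * (y + y ^ 2 / 2 + 2 / 9 * y ^ 3)
          = (m * x + x) * (pE x + x * pE x ^ 2 / 2 + 2 / 9 * x ^ 2 * pE x ^ 3) := by
        rw [hy]
        ring
      rw [this, hmx]
    have a2 : ((m1 : ℝ) + 1) * (y1 + y1 ^ 2 / 2 + 2 / 9 * y1 ^ 3)
        = (1 + x1) * (pE x1 + x1 * pE x1 ^ 2 / 2 + 2 / 9 * x1 ^ 2 * pE x1 ^ 3) := by
      have hmx : (m1 : ℝ) * x1 = 1 := by
        rw [hx1]
        have : (m1 : ℝ) ≠ 0 := by linarith
        field_simp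
      have : ((m1 : ℝ) + 1) * (y1 + y1 ^ 2 / 2 + 2 / 9 * y1 ^ 3)
          = (m1 * x1 + x1) * (pE x1 + x1 * pE x1 ^ 2 / 2 + 2 / 9 * x1 ^ 2 * pE x1 ^ 3) := by
        rw [hy1']
        ring
      rw [this, hmx]
    rw [a1, a2]
    gcongr
  have h3 : C0 * (y + y ^ 2 / 2 + 2 / 9 * y ^ 3) ≤ ((m1 : ℝ) + 1) / ((m : ℝ) + 1) * (C1 - C0) := by
    rw [div_mul_eq_mul_div ((m1 : ℝ) + 1), le_div_iff₀ hmp]
    calc C0 * (y + y ^ 2 / 2 + 2 / 9 * y ^ 3) * ((m : ℝ) + 1)
        = C0 * (((m : ℝ) + 1) * (y + y ^ 2 / 2 + 2 / 9 * y ^ 3)) := by ring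
      _ ≤ C0 * (((m1 : ℝ) + 1) * (y1 + y1 ^ 2 / 2 + 2 / 9 * y1 ^ 3)) :=
          mul_le_mul_of_nonneg_left key hC0.le
      _ = ((m1 : ℝ) + 1) * (C0 * (y1 + y1 ^ 2 / 2 + 2 / 9 * y1 ^ 3)) := by ring
      _ ≤ ((m1 : ℝ) + 1) * (C1 - C0) := mul_le_mul_of_nonneg_left hc (by linarith)
  calc √2 * exp y ≤ C0 * exp y := mul_le_mul_of_nonneg_right h0 (Real.exp_pos _).le
    _ ≤ C0 * (1 + y + y ^ 2 / 2 + 2 / 9 * y ^ 3) := mul_le_mul_of_nonneg_left he hC0.le
    _ = C0 + C0 * (y + y ^ 2 / 2 + 2 / 9 * y ^ 3) := by ring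
    _ ≤ C0 + ((m1 : ℝ) + 1) / ((m : ℝ) + 1) * (C1 - C0) := by linarith

/-- `√2` is at most `1.41421357` -/
lemma sqrt2_le : √2 ≤ 141421357 / 100000000 := by
  rw [Real.sqrt_le_left (by norm_num)]
  norm_num

/-- pair with the lower end `36` -/
theorem lev_pair36 {m : ℕ} (hm : 36 ≤ m) :
    leastClifford m ≤ (141421357 / 100000000 + (37 : ℝ) / ((m : ℝ) + 1)
      * (142408 / 100000 - 141421357 / 100000000)) * sphereVol m := by
  have h := lev_pair (m1 := 36) (by norm_num) hm (C1 := 142408 / 100000) sqrt2_le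
    (by unfold pE; norm_num)
  norm_num at h ⊢
  exact h

/-- pair with the lower end `60` -/
theorem lev_pair60 {m : ℕ} (hm : 60 ≤ m) :
    leastClifford m ≤ (141421357 / 100000000 + (61 : ℝ) / ((m : ℝ) + 1)
      * (142012 / 100000 - 141421357 / 100000000)) * sphereVol m := by
  have h := lev_pair (m1 := 60) (by norm_num) hm (C1 := 142012 / 100000) sqrt2_le
    (by unfold pE; norm_num)
  norm_num at h ⊢
  exact h

/-- pair with the lower end `200` -/
theorem lev_pair200 {m : ℕ} (hm : 200 ≤ m) :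
    leastClifford m ≤ (141421357 / 100000000 + (201 : ℝ) / ((m : ℝ) + 1)
      * (14159834 / 10000000 - 141421357 / 100000000)) * sphereVol m := by
  have h := lev_pair (m1 := 200) (by norm_num) hm (C1 := 14159834 / 10000000) sqrt2_le
    (by unfold pE; norm_num)
  norm_num at h ⊢
  exact h

end Vale.Agent.P224.R2.H797
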