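import Vale.Agent.P224.R2.H176.T0.Stab3
import Vale.Agent.P224.R2.H797.LawE

/-!
The resource of the certificates for the direction of the mean normal.
-/

namespace Vale.Agent.P224.R2.H797

open MeasureTheory Set Filter Function Module Vale.Agent.P224 Vale.Agent.P224.UE
open Vale.Agent.P224.PO Vale.Agent.P224.R2.H178 Vale.Agent.P224.R2.H176
open Vale.Agent.P224.SM2 hiding ker
open scoped Topology RealInnerProductSpace ENNReal ContDiff Manifold

set_option linter.unusedSectionVars false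

lemma RQ_opp {X E : Type*} [NormedAddCommGroup E] [InnerProductSpace ℝ E] (F N : X → E) (v : E)
    (q : X × X) (a b c : ℝ) :
    RQ a b 0 (-1) 0 0 (-c) 0 (dat F (fun x => -N x) 0 q)
      = a - XF (-b) 1 (-c) (dat F N v q) := by
  have a0 : dat F (fun x => -N x) 0 q 0 = ⟪F q.1, F q.2⟫ := rfl
  have a1 : dat F (fun x => -N x) 0 q 1 = ⟪F q.1, -N q.2⟫ := rfl
  have a2 : dat F (fun x => -N x) 0 q 2 = ⟪-N q.1, F q.2⟫ := rfl
  have a3 : dat F (fun x => -N x) 0 q 3 = ⟪-N q.1, -N q.2⟫ := rfl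
  have b0 : dat F N v q 0 = ⟪F q.1, F q.2⟫ := rfl
  have b1 : dat F N v q 1 = ⟪F q.1, N q.2⟫ := rfl
  have b2 : dat F N v q 2 = ⟪N q.1, F q.2⟫ := rfl
  have b3 : dat F N v q 3 = ⟪N q.1, N q.2⟫ := rfl
  unfold RQ XF
  rw [a0, a1, a2, a3, b0, b1, b2, b3, inner_neg_neg, inner_neg_right, inner_neg_left]
  ring

section

variable {V W M : Type*} [NormedAddCommGroup V] [InnerProductSpace ℝ V] [FiniteDimensional ℝ V]
  [NormedAddCommGroup W] [InnerProductSpace ℝ W] [FiniteDimensional ℝ W]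
  [TopologicalSpace M] [ChartedSpace V M]
  [MeasurableSpace V] [BorelSpace V] [MeasurableSpace M] [BorelSpace M]
  [IsManifold 𝓘(ℝ, V) ∞ M] [CompactSpace M] [T2Space M] [ConnectedSpace M]
  [MeasurableSpace W] [BorelSpace W]

/-- the value of the resource -/
theorem res_le (hV : finrank ℝ V = 3) (hW : finrank ℝ W = finrank ℝ V + 2) {F : M → W}
    (hF : SphImm V F) (hmin : ∀ x n, IsUnitNormal V F x n → meanCurv V F x n = 0)
    (hng : ¬ ∃ a : W, a ≠ 0 ∧ ∀ x, ⟪F x, a⟫ = 0)
    {N : M → W} (hNs : ContMDiff 𝓘(ℝ, V) 𝓘(ℝ, W) ∞ N) (hN : ∀ x, IsUnitNormal V F x (N x))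
    {m : ℕ} (hG : TwoG (volM V F) m F N)
    (hor : 0 ≤ ∫ q : M × M, ⟪F q.1, F q.2⟫ * ⟪F q.1, N q.2⟫
      ∂((volM V F).prod (volM V F))) (v : W) {lam q r1 r2 r3 : ℝ} (hl : 0 ≤ lam)
    (h1 : r1 = -(lam * (16 / 25))) (h2 : r2 = lam) (h3 : r3 = -(lam * (711 / 5000)))
    (hq : q = lam * (510908 / 10000000)) :
    0 ≤ q * (volM V F).real univ ^ 2
      - ∫ p, XF r1 r2 r3 (dat F N v p) ∂((volM V F).prod (volM V F)) := by
  have hfin : IsFiniteMeasure (volM V F) := isFiniteMeasure_volM hF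
  have hB : Bq (2 / 5) = 22 / 875 := by
    unfold Bq
    norm_num
  have s2 : (0 : ℝ) < √2 := by positivity
  have s2' : √2 * √2 = (2 : ℝ) := Real.mul_self_sqrt (by norm_num)
  have s3 : (14142 / 10000 : ℝ) ≤ √2 := Real.le_sqrt_of_sq_le (by norm_num)
  -- the parameter of the trapezoid
  set l : ℝ := 711 / 5000 * √2 / 8 / Bq (2 / 5) with hld
  have hlB : l * Bq (2 / 5) = 711 / 5000 * √2 / 8 := by
    rw [hld, hB]
    field_simp
  have s4 : √2 ≤ 14142136 / 10000000 := Real.sqrt_le_iff.2 ⟨by norm_num, by norm_num⟩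
  have l0 : 0 ≤ l := by
    rw [hld, hB]
    positivity
  have l1 : l ≤ 1 := by
    rw [hld, hB, div_le_one (by norm_num)]
    linarith
  have hres := res_trap (a := 2 / 5) (l := l) (by norm_num) (by norm_num) l0 l1
  rw [hlB] at hres
  have ht : 0 ≤ min (tq (2 / 5) l) ((1 - l) * Bq (2 / 5) * (8 / 27)) := by
    refine le_min ?_ ?_
    · unfold tq
      have := sub_nonneg.2 l1
      nlinarith
    · rw [hB]
      have := sub_nonneg.2 l1
      positivity
  have hk : 0 ≤ kq (2 / 5) l := by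
    unfold kq
    have := sub_nonneg.2 l1
    nlinarith
  have key := nonneg_of_res hV hW hF hmin hng (al := 2 / 5 / 10) (be := 711 / 5000 * √2 / 8)
    (a2 := 1) (by norm_num) one_pos hres ht hk (r0 := 510908 / 10000000) (u00 := 16 / 25)
    (u33 := 0) (u03 := -1) (u11 := 0) (u12 := 0) (v0 := -(711 / 5000)) (v3 := 0)
    (by norm_num) (by norm_num) (by nlinarith) (by linarith) hNs hN hor
  have e1 : ∀ p, RQ (510908 / 10000000) (16 / 25) 0 (-1) 0 0 (-(711 / 5000)) 0
      (dat F (fun x => -N x) 0 p)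
      = 510908 / 10000000 - XF (-(16 / 25)) 1 (-(711 / 5000)) (dat F N v p) := fun p =>
    RQ_opp F N v p _ _ _
  have i1 : Integrable (fun p => XF (-(16 / 25)) 1 (-(711 / 5000)) (dat F N v p))
      ((volM V F).prod (volM V F)) :=
    integrable_param _ (measurable_dat hG.toPts v) (isCompact_KE (bE v))
      (dat_mem hG.toPts v) (continuous_XF _ _ _).measurable (continuous_XF _ _ _).continuousOn
  simp_rw [e1] at key
  rw [integral_sub (integrable_const _) i1, integral_const, smul_eq_mul, measureReal_def,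
    ← univ_prod_univ, Measure.prod_prod, ENNReal.toReal_mul] at key
  have e2 : ∀ p, XF r1 r2 r3 (dat F N v p)
      = lam * XF (-(16 / 25)) 1 (-(711 / 5000)) (dat F N v p) := by
    intro p
    unfold XF
    rw [h1, h2, h3]
    ring
  simp_rw [e2]
  rw [integral_const_mul, hq, measureReal_def]
  have := mul_nonneg hl key
  linarith

end

end Vale.Agent.P224.R2.H797
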