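import Vale.Agent.P224.R2.H797.LawM
import Vale.Agent.P224.R2.H389.Far

/-!
**The thin range**: a certificate for the direction of the mean normal, negative for lengths between
`lo` and `1 / 8`, shows that the mean normal of a closed minimal hypersurface of small volume is
shorter than `lo`.
-/

namespace Vale.Agent.P224.R2.H797

open MeasureTheory Set Filter Function Module Vale.Agent.P224 Vale.Agent.P224.UE
open Vale.Agent.P224.PO Vale.Agent.P224.R2.H178
open Vale.Agent.P224.SM2 hiding ker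
open scoped Topology RealInnerProductSpace ENNReal ContDiff Manifold

set_option linter.unusedSectionVars false

section

variable {V W M : Type*} [NormedAddCommGroup V] [InnerProductSpace ℝ V] [FiniteDimensional ℝ V]
  [NormedAddCommGroup W] [InnerProductSpace ℝ W] [FiniteDimensional ℝ W]
  [TopologicalSpace M] [ChartedSpace V M]
  [MeasurableSpace V] [BorelSpace V] [MeasurableSpace M] [BorelSpace M]
  [IsManifold 𝓘(ℝ, V) ∞ M] [CompactSpace M] [T2Space M] [ConnectedSpace M]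
  [MeasurableSpace W] [BorelSpace W]

/-- **The thin range.** -/
theorem thin_of {m : ℕ} (hm : 2 ≤ m) (hV : finrank ℝ V = m) (hW : finrank ℝ W = finrank ℝ V + 2)
    {F : M → W} (hF : SphImm V F) (hmin : ∀ x n, IsUnitNormal V F x n → meanCurv V F x n = 0)
    (hng : ¬ ∃ a : W, a ≠ 0 ∧ ∀ x, ⟪F x, a⟫ = 0)
    {N : M → W} (hNs : ContMDiff 𝓘(ℝ, V) 𝓘(ℝ, W) ∞ N) (hN : ∀ x, IsUnitNormal V F x (N x))
    (htop : ‖∫ x, N x ∂(volM V F)‖ ≤ sphereVol (finrank ℝ V)) {e : W}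
    (he : (volM V F).real univ • e = ∫ x, N x ∂(volM V F))
    {C κ lo : ℝ} (hκ0 : 0 ≤ κ) (hκ : κ * C ≤ KH m) (hC : C ≤ 14352 / 10000) (hlo : 0 < lo)
    (hhi : (volM V F).real univ ≤ C * sphereVol (finrank ℝ V))
    {b0 b1 b2 b3 b4 b5 b6 b7 b8 : ℝ} {l : List (ℝ × HTerm)}
    (hl : ∀ cT ∈ l, cT.2.ok m = true)
    (hpos : ∀ v x N y w : W, ‖v‖ = 1 → ‖x‖ = 1 → ‖N‖ = 1 → ‖y‖ = 1 → ‖w‖ = 1 → ⟪x, N⟫ = 0 →
      ⟪y, w⟫ = 0 → ⟪x, y⟫ < 1 → 0 ≤ W9 b0 b1 b2 b3 b4 b5 b6 b7 b8 (dv x N y w v)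
        + hsum m l (dv x N y w v))
    (hlaw : ∀ ν ρ : ℝ, lo ≤ ν → ν ≤ 1 / 8 → ν ^ 2 ≤ ρ → ρ ≤ 1 → hvalU m l ν ρ ≤ 0 ∧
      (b0 + b3 + b2 * ν + b1 * ν ^ 2 + (b4 + b7 * ν) * ρ + (b5 + b6) * ν ^ 2
        + b8 * ((1 - ρ) / (m + 1))) + κ * hvalU m l ν ρ < 0) :
    ‖e‖ < lo := by
  subst hV
  have hfin : IsFiniteMeasure (volM V F) := isFiniteMeasure_volM hF
  have hne : Nonempty M := inferInstance
  have hA0 : 0 < (volM V F).real univ := by
    rw [measureReal_def]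
    exact ENNReal.toReal_pos (volM_pos_of_isOpen hW hF isOpen_univ univ_nonempty).ne'
      (measure_ne_top _ _)
  have hS0 : 0 < sphereVol (finrank ℝ V) := sphereVol_pos' _
  have hup : (volM V F).real univ ≤ 14352 / 10000 * sphereVol (finrank ℝ V) :=
    hhi.trans (mul_le_mul_of_nonneg_right hC hS0.le)
  have hfar := H389.far hm hW hF hmin hng hNs hN htop he hup
  by_contra hcon
  rw [not_lt] at hcon
  have hinj : Injective F := by
    by_contra hinj
    have h2 := TwoSide.two_le (by omega) hW hF hmin hinj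
    linarith
  obtain ⟨B, hE⟩ := embD_of_inj (by omega) hW hF hmin hNs hN hinj
  have he0 : e ≠ 0 := by
    rintro rfl
    rw [norm_zero] at hcon
    linarith
  exact false_of_certM hm hE he0 he hA0 hκ0 hκ hS0 hhi hl hpos
    (fun ρ h1 h2 => hlaw _ ρ hcon hfar.le h1 h2)

end

end Vale.Agent.P224.R2.H797
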