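import Vale.Agent.P224.R2.H797.Thin
import Vale.Agent.P224.R2.H797.T19.Id
import Vale.Agent.P224.R2.H797.T19.Law
import Vale.Agent.P224.UG.Ratio

/-!
**The thin range in dimension 19**: the mean normal of a closed minimal hypersurface of volume at
most that of the least Clifford hypersurface is shorter than `3 / 100`.
-/

namespace Vale.Agent.P224.R2.H797

open MeasureTheory Set Filter Function Module Vale.Agent.P224 Vale.Agent.P224.UE
open Vale.Agent.P224.PO Vale.Agent.P224.R2.H178
open Vale.Agent.P224.SM2 hiding ker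
open scoped Topology RealInnerProductSpace ENNReal ContDiff Manifold

/-- the least Clifford ratio -/
theorem lc19 : leastClifford 19 ≤ 143296 / 100000 * sphereVol 19 := by
  refine odd_bound (k := 9) (by norm_num) ?_
  refine le_of_pow_le_pow_left₀ (n := 4) (by norm_num) (by norm_num) ?_
  rw [oddRatio_pow_four]
  norm_num

section

variable {V W M : Type*} [NormedAddCommGroup V] [InnerProductSpace ℝ V] [FiniteDimensional ℝ V]
  [NormedAddCommGroup W] [InnerProductSpace ℝ W] [FiniteDimensional ℝ W]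
  [TopologicalSpace M] [ChartedSpace V M]
  [MeasurableSpace V] [BorelSpace V] [MeasurableSpace M] [BorelSpace M]
  [IsManifold 𝓘(ℝ, V) ∞ M] [CompactSpace M] [T2Space M] [ConnectedSpace M]
  [MeasurableSpace W] [BorelSpace W]

/-- **The thin range in dimension 19.** -/
theorem thin19 (hV : finrank ℝ V = 19) (hW : finrank ℝ W = finrank ℝ V + 2)
    {F : M → W} (hF : SphImm V F) (hmin : ∀ x n, IsUnitNormal V F x n → meanCurv V F x n = 0)
    (hng : ¬ ∃ a : W, a ≠ 0 ∧ ∀ x, ⟪F x, a⟫ = 0)
    {N : M → W} (hNs : ContMDiff 𝓘(ℝ, V) 𝓘(ℝ, W) ∞ N) (hN : ∀ x, IsUnitNormal V F x (N x))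
    (htop : ‖∫ x, N x ∂(volM V F)‖ ≤ sphereVol (finrank ℝ V)) {e : W}
    (he : (volM V F).real univ • e = ∫ x, N x ∂(volM V F))
    (hhi : (volM V F).real univ ≤ 143296 / 100000 * sphereVol (finrank ℝ V)) : ‖e‖ < 3 / 100 :=
  thin_of (by norm_num) hV hW hF hmin hng hNs hN htop he (by norm_num) T19.kh (by norm_num)
    (by norm_num) hhi T19.rows_ok
    (fun v x N y w a b c d e f g h => T19.hpos v x N y w a b c d e f g h)
    (fun _ _ h1 h2 h3 h4 => T19.hneg h1 h2 h3 h4)

end

end Vale.Agent.P224.R2.H797
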