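import Vale.Agent.P224.PO.IdX
import Vale.Agent.P224.PO.RowsK
import Vale.Agent.P224.PO.LvO
import Vale.Agent.P224.R2.H178.LawU

/-!
Kernel checked certificates for a unit vector: the square of the length of the fixed vector is
replaced by one in the identity, and the value of the rows is a polynomial in the length of the
mean normal and the second moment.
-/

namespace Vale.Agent.P224.R2.H797

open Vale.Agent.P224.UE Vale.Agent.P224.POS Vale.Agent.P224.PO Vale.Agent.P224.R2.H178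
open scoped RealInnerProductSpace

noncomputable section

/-! ### The Gram table with a unit vector -/

/-- the table of inner products for a unit vector -/
def tabU : List (List PE) :=
  [[.c 1, .c 0, .c 0, .c 0, .c 0, .c 0],
   [.c 0, .sub (.c 1) (.pow (.v 0) 2), .c 0, .v 1, .v 2, .v 4],
   [.c 0, .c 0, .pow (.v 0) 2, .sub (.c 0) (.v 2), .sub (.c 0) (.v 1), .v 5],
   [.c 0, .v 1, .sub (.c 0) (.v 2), .sub (.c 1) (.v 3), .c 0, .v 6],
   [.c 0, .v 2, .sub (.c 0) (.v 1), .c 0, .v 3, .v 7],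
   [.c 0, .v 4, .v 5, .v 6, .v 7, .c 1]]

/-- the pair data as polynomials of the new data, the fixed vector is a unit vector -/
def sbU (i : ℕ) : PE :=
  match i with
  | 0 => PE.v 0
  | 1 => PE.mul (PE.c 2) (PE.sub (PE.v 1) (PE.v 2))
  | 2 => PE.mul (PE.c 2) (PE.add (PE.v 1) (PE.v 2))
  | 3 => PE.sub (PE.c 1) (PE.mul (PE.c 2) (PE.v 3))
  | 4 => PE.add (PE.v 6) (PE.v 7)
  | 5 => PE.sub (PE.v 6) (PE.v 7)
  | 6 => PE.add (PE.v 4) (PE.v 5)
  | 7 => PE.sub (PE.v 4) (PE.v 5)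
  | 8 => PE.c 1
  | i => PE.v i

lemma ev_sbU {d : R9} (hd : d 8 = 1) (i : ℕ) : PE.ev (vg d) (sbU i) = vh d i := by
  match i with
  | 0 => exact ev_sbH d 0
  | 1 => exact ev_sbH d 1
  | 2 => exact ev_sbH d 2
  | 3 => exact ev_sbH d 3
  | 4 => exact ev_sbH d 4
  | 5 => exact ev_sbH d 5
  | 6 => exact ev_sbH d 6
  | 7 => exact ev_sbH d 7
  | 8 => simp [sbU, vh, hd]
  | (n + 9) => exact ev_sbH d (n + 9)

lemma ev_sb_sbU {d : R9} (hd : d 8 = 1) (P : PE) :
    PE.ev (vg d) (PE.sb sbU P) = PE.ev (vh d) P := by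
  rw [PE.ev_sb]
  congr 1
  funext i
  exact ev_sbU hd i

lemma grU_ge {k l : ℕ} (h : 6 ≤ k ∨ 6 ≤ l) : grT tabU k l = PE.c 0 := by
  unfold grT
  by_cases hk : 6 ≤ k
  · rw [lk_ge _ _ k (by simpa [tabU] using hk)]
    rfl
  · have hl : 6 ≤ l := h.resolve_left hk
    have hk' : k < 6 := not_le.1 hk
    have h6 : ∀ i < 6, (lk (fun _ => ([] : List PE)) tabU i).length = 6 := by
      intro i hi
      interval_cases i <;> rfl
    rw [lk_ge _ _ l (by rw [h6 k hk']; exact hl)]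

lemma ev_grU {d : R9} (h8 : d 8 = 1) (k l : ℕ) :
    PE.ev (vg d) (grT tabU k l) = PE.ev (vg d) (grT tabH k l) := by
  have h9 : vg d 8 = 1 := h8
  by_cases h : 6 ≤ k ∨ 6 ≤ l
  · rw [grU_ge h, grT_ge h]
  · have hk : k < 6 := by omega
    have hl : l < 6 := by omega
    interval_cases k <;> interval_cases l <;>
      first
        | rfl
        | simp only [grT, tabU, tabH, lk_zero, lk_succ, PE.ev_c, PE.ev_v, h9, Int.cast_one]

lemma sym_tabU {R : Type*} [CommRing R] (f : ℕ → R) (k l : ℕ) :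
    PE.ev f (grT tabU k l) = PE.ev f (grT tabU l k) := by
  by_cases h : 6 ≤ k ∨ 6 ≤ l
  · rw [grU_ge h, grU_ge h.symm]
  · have hk : k < 6 := by omega
    have hl : l < 6 := by omega
    interval_cases k <;> interval_cases l <;> rfl

/-- the multipliers `1`, `rr` -/
def mulU (B1 Br : List BlkX) : List (PE × List BlkX) :=
  [(.c 1, B1), (.v 0, Br)]

section

variable {E : Type*} [NormedAddCommGroup E] [InnerProductSpace ℝ E]

lemma dv_eight {x N y w v : E} (hv : ‖v‖ = 1) : dv x N y w v 8 = 1 := by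
  change ⟪v, v⟫ = 1
  rw [real_inner_self_eq_norm_sq, hv]
  norm_num

theorem isGramT_dvU {x N y w v : E} (hv : ‖v‖ = 1) (hx : ‖x‖ = 1) (hN : ‖N‖ = 1)
    (hy : ‖y‖ = 1) (hw : ‖w‖ = 1) (hxN : ⟪x, N⟫ = 0) (hyw : ⟪y, w⟫ = 0) (hs : ⟪x, y⟫ < 1) :
    IsGramT tabU (vg (dv x N y w v)) (vec5 ((1 / 2 : ℝ) • (x + y)) ((1 / 2 : ℝ) • (x - y))
      ((1 / 2 : ℝ) • (N + w)) ((1 / 2 : ℝ) • (N - w)) v) := by
  have h := isGramT_dv v hx hN hy hw hxN hyw hs
  refine ⟨h.1, fun k l => ?_⟩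
  rw [ev_grU (dv_eight hv), h.2]

/-- **Nonnegativity from a verified identity**, for a unit vector. -/
theorem nonneg_of_chkU {P : PE} {B1 Br : List BlkX} {Ms : List ℕ} (k : Int) (hk : 0 ≤ k)
    (hid : chkX Ms (PE.sb sbU P) k tabU (mulU B1 Br) = true) (hMs : Ms.length = 4)
    (h1 : GoodX B1) (h2 : GoodX Br)
    {v x N y w : E} (hv : ‖v‖ = 1) (hx : ‖x‖ = 1) (hN : ‖N‖ = 1) (hy : ‖y‖ = 1)
    (hw : ‖w‖ = 1) (hxN : ⟪x, N⟫ = 0) (hyw : ⟪y, w⟫ = 0) (hs : ⟪x, y⟫ < 1) :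
    0 ≤ PE.ev (vh (dv x N y w v)) P := by
  have e1 : toGs (mulU B1 Br) = [(.c 1, B1.map BlkX.toG), (.v 0, Br.map BlkX.toG)] := rfl
  rw [← ev_sb_sbU (dv_eight hv), ev_eq_of_chkX hid (fun f k l => sym_tabU f k l) _
    (fun i hi => vg_ge _ _ (by omega)), e1]
  refine mul_nonneg (by exact_mod_cast hk)
    (rhsG_nonneg _ (isGramT_dvU hv hx hN hy hw hxN hyw hs) ?_ ?_)
  · have h0 : 0 ≤ vg (dv x N y w v) 0 := Real.sqrt_nonneg _
    intro y hy
    simp only [List.mem_cons, List.not_mem_nil, or_false] at hy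
    rcases hy with rfl | rfl
    · simp
    · simpa using h0
  · intro y hy
    simp only [List.mem_cons, List.not_mem_nil, or_false] at hy
    rcases hy with rfl | rfl
    · exact goodX_toG h1
    · exact goodX_toG h2

end

/-! ### The value of the rows -/

/-- `m + 1` times the moment, in the variables `ν`, `ρ` -/
def momPU (m : Nat) (a b : Nat) : PE :=
  match a, b with
  | 0, 0 => PE.c ((m : Int) + 1)
  | 1, 0 => PE.mul (PE.c ((m : Int) + 1)) (PE.v 0)
  | 2, 0 => PE.mul (PE.c ((m : Int) + 1)) (PE.v 1)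
  | 0, 2 => PE.sub (PE.c 1) (PE.v 1)
  | _, _ => PE.c 0

lemma ev_momPU (f : ℕ → ℝ) (m a b : ℕ) :
    PE.ev f (momPU m a b) = (m + 1) * momU m (f 0) (f 1) a b := by
  have hm : (m : ℝ) + 1 ≠ 0 := by positivity
  rcases a with _ | _ | _ | a <;> rcases b with _ | _ | _ | b <;>
    simp [momPU, momU] <;> field_simp

/-- `m + 1` times the value of a term, in the variables `ν`, `ρ` -/
def tvU (m : Nat) (T : HTerm) : PE :=
  Bool.rec (motive := fun _ => PE)
    (PE.mul (Bool.rec (motive := fun _ => PE) (PE.c (-1)) (PE.c 1) (decide (T.fam = 0)))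
      (momPU m T.kn T.kx))
    (PE.c 0) (T.sub m)

lemma ev_tvU (f : ℕ → ℝ) (m : ℕ) (T : HTerm) :
    PE.ev f (tvU m T) = (m + 1) * VU m T (f 0) (f 1) := by
  unfold tvU VU
  cases h : T.sub m with
  | true => simp
  | false =>
    simp only [Bool.false_eq_true, if_false]
    by_cases hf : T.fam = 0
    · simp only [hf, decide_true, if_true]
      rw [PE.ev_mul, PE.ev_c, ev_momPU]
      push_cast
      ring
    · simp only [hf, decide_false, if_false]
      rw [PE.ev_mul, PE.ev_c, ev_momPU]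
      push_cast
      ring

/-- `m + 1` times the value of the list -/
def lvU (m : Nat) (l : List (Int × HTerm)) : PE :=
  List.rec (motive := fun _ => PE) (PE.c 0)
    (fun cT _ ih => PE.add (PE.mul (PE.c cT.1) (tvU m cT.2)) ih) l

lemma ev_lvU (f : ℕ → ℝ) (m : ℕ) {D : Int} (hD : D ≠ 0) (l : List (Int × HTerm)) :
    PE.ev f (lvU m l) = (m + 1) * D * hvalU m (rlH D l) (f 0) (f 1) := by
  have hD' : (D : ℝ) ≠ 0 := by exact_mod_cast hD
  induction l with
  | nil => simp [lvU, hvalU, rlH]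
  | cons cT l ih =>
    have e1 : lvU m (cT :: l) = PE.add (PE.mul (PE.c cT.1) (tvU m cT.2)) (lvU m l) := rfl
    rw [e1, PE.ev_add, PE.ev_mul, PE.ev_c, ev_tvU, ih]
    simp only [hvalU, rlH, List.map_cons, List.sum_cons]
    field_simp

/-- The value of a list in closed form, verified by the kernel. -/
theorem hvalU_eq {m : ℕ} {D : Int} (hD : D ≠ 0) {l : List (Int × HTerm)} {q : PE}
    (h : chk [] (PE.sub (lvU m l) q) = true) (ν ρ : ℝ) :
    hvalU m (rlH D l) ν ρ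
      = PE.ev (fun i => ([ν, ρ] : List ℝ).getD i 0) q / ((m + 1) * D) := by
  have hD' : (D : ℝ) ≠ 0 := by exact_mod_cast hD
  have hm : (m : ℝ) + 1 ≠ 0 := by positivity
  have h1 := ev_eq_of_chk h (fun i => ([ν, ρ] : List ℝ).getD i 0) (fun i hi =>
    List.getD_eq_default _ _ (by simp at hi ⊢; omega))
  rw [← h1, ev_lvU _ m hD]
  have e0 : ([ν, ρ] : List ℝ).getD 0 0 = ν := rfl
  have e1 : ([ν, ρ] : List ℝ).getD 1 0 = ρ := rfl
  rw [e0, e1]
  field_simp

end

end Vale.Agent.P224.R2.H797
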